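import Vale.Agent.P032.H98.StarFin

/-!
# P032: columns of a two-pair centre, link events of the type HE (finite part)

Letters `0 = e`, `1 = f`, `2 = A`, `3 = C` as in `H98/StarFin.lean`.  At a slot the letter may also
change from `f` to `A` or back, if the two neighbouring slots have letters `C, C`, `C, e`, `e, C`,
`A, C` or `C, A` before and after; the same for `f`, `C`.  The five classes of `StarFin` do not
change, for any number of such slots at the same time.
-/

namespace Vale.Agent.P032.H738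

open Vale.Agent.P032.H98 (labN lab imp imp_mp codA codB cp cp_div cp_mod AdjOK OpOK Ct)

/-- the pairs of letters which are allowed next to a change between `f` and `A` -/
def NbA (a b : Fin 4) : Prop :=
  (a = 3 ∧ b = 3) ∨ (a = 3 ∧ b = 0) ∨ (a = 0 ∧ b = 3) ∨ (a = 3 ∧ b = 2) ∨ (a = 2 ∧ b = 3)

/-- the pairs of letters which are allowed next to a change between `f` and `C` -/
def NbC (a b : Fin 4) : Prop :=
  (a = 2 ∧ b = 2) ∨ (a = 2 ∧ b = 0) ∨ (a = 0 ∧ b = 2) ∨ (a = 3 ∧ b = 2) ∨ (a = 2 ∧ b = 3)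

/-- the condition on the neighbour of a slot -/
def Cond (a b a' b' : Fin 4) : Prop :=
  ((a = 1 ∧ b = 2) ∨ (a = 2 ∧ b = 1) → NbA a' b') ∧
    ((a = 1 ∧ b = 3) ∨ (a = 3 ∧ b = 1) → NbC a' b')

/-- possible pairs of letters at neighbouring slots, with link events -/
def AdjH (a b a' b' : Fin 4) : Prop := AdjOK a b a' b' ∧ Cond a b a' b' ∧ Cond a' b' a b

instance (a b : Fin 4) : Decidable (NbA a b) := by unfold NbA; infer_instance
instance (a b : Fin 4) : Decidable (NbC a b) := by unfold NbC; infer_instance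
instance (a b a' b' : Fin 4) : Decidable (Cond a b a' b') := by unfold Cond; infer_instance
instance (a b a' b' : Fin 4) : Decidable (AdjH a b a' b') := by unfold AdjH; infer_instance

/-- the possible pairs at the next slot -/
def nx (p : ℕ) : List ℕ :=
  ([[5, 10, 11, 14, 15], [8, 10, 11, 12, 14, 15], [4, 5, 7, 11, 12, 13, 15],
    [4, 5, 6, 8, 9, 10, 14], [2, 3, 10, 11, 14, 15], [0, 2, 3, 8, 10, 11, 12, 14, 15],
    [3, 11, 12, 15], [2, 8, 10, 14], [1, 3, 5, 7, 13, 14, 15], [3, 12, 14, 15],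
    [0, 1, 3, 4, 5, 7, 12, 13, 15], [0, 1, 2, 4, 5, 6, 12, 13, 14], [1, 2, 5, 6, 9, 10, 11],
    [2, 8, 10, 11], [0, 1, 3, 4, 5, 7, 8, 9, 11], [0, 1, 2, 4, 5, 6, 8, 9, 10]] :
    List (List ℕ)).getD p []

/-- neighbours -/
def adB (p q : ℕ) : Bool :=
  Nat.beq (Nat.land (Nat.shiftRight
    0x7770bbb0d040e667077b0bbd008e0aa45049808dd0dcc0c4770b8b0dd00cc20 (16 * p + q)) 1) 1

/-- opposite slots -/
def opB (p q : ℕ) : Bool :=
  Nat.beq (Nat.land (Nat.shiftRight
    0xb0bb0033b0bbb0bb0033077707770777b0bb0777ffffffffb0bb0777ffffffff (16 * p + q)) 1) 1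

/-- all codes of pairs -/
def all16 : List ℕ := [0, 1, 2, 3, 4, 5, 6, 7, 8, 9, 10, 11, 12, 13, 14, 15]

/-- the check of the ties -/
def chk : Bool :=
  all16.all fun p0 => (nx p0).all fun p1 => (nx p1).all fun p2 => (nx p2).all fun p3 =>
    imp (opB p0 p3) ((nx p3).all fun p4 => imp (opB p1 p4) ((nx p4).all fun p5 =>
      imp (opB p2 p5) (imp (adB p5 p0)
        (Nat.beq (labN (codA p0 p1 p2 p3 p4 p5)) (labN (codB p0 p1 p2 p3 p4 p5))))))

theorem chk_true : chk = true := by decide +kernel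

theorem mem_all : ∀ a b : Fin 4, cp a b ∈ all16 := by decide

theorem mem_nx : ∀ a b a' b' : Fin 4, AdjH a b a' b' → cp a' b' ∈ nx (cp a b) := by
  decide +kernel

theorem adB_of : ∀ a b a' b' : Fin 4, AdjH a b a' b' → adB (cp a b) (cp a' b') = true := by
  decide +kernel

theorem opB_of : ∀ a b a' b' : Fin 4, OpOK a b a' b' → opB (cp a b) (cp a' b') = true := by
  decide +kernel

/-- **ties with link events**: the class does not change -/
theorem tie (h h' : Fin 6 → Fin 4)
    (adj : ∀ j, AdjH (h j) (h' j) (h (j + 1)) (h' (j + 1)))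
    (op : ∀ j, OpOK (h j) (h' j) (h (j + 3)) (h' (j + 3))) : lab h = lab h' := by
  have k0 := List.all_eq_true.1 chk_true _ (mem_all (h 0) (h' 0))
  have k1 := List.all_eq_true.1 k0 _ (mem_nx _ _ _ _ (adj 0))
  have k2 := List.all_eq_true.1 k1 _ (mem_nx _ _ _ _ (adj 1))
  have k3 := List.all_eq_true.1 k2 _ (mem_nx _ _ _ _ (adj 2))
  have k4 := List.all_eq_true.1 (imp_mp k3 (opB_of _ _ _ _ (op 0))) _
    (mem_nx _ _ _ _ (adj 3))
  have k5 := List.all_eq_true.1 (imp_mp k4 (opB_of _ _ _ _ (op 1))) _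
    (mem_nx _ _ _ _ (adj 4))
  have k6 := imp_mp (imp_mp k5 (opB_of _ _ _ _ (op 2))) (adB_of _ _ _ _ (adj 5))
  have k7 := Nat.eq_of_beq_eq_true k6
  unfold codA codB at k7
  simp only [cp_div, cp_mod] at k7
  exact k7

end Vale.Agent.P032.H738
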