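import Vale.Agent.P032.H738.LinkFin

/-!
# P032: columns of a two-pair centre, link events of all types in one mode (finite part)

Letters `0 = e`, `1 = f`, `2 = A`, `3 = C` as in `H98/StarFin.lean`.  The three statements asked for
by helper353.

* `tieX`: at a slot the letter may also change between `f` and `A` or `C`, if the letters at the
  slots `j + 2` and `j + 4` are `e` or `f` before and after: the class does not change;
* `cornerX`: at one slot `j0` everything is allowed; then the class does not change or exactly one of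
  the two classes is big;
* `rot_big`: the rotation keeps the size class.
-/

namespace Vale.Agent.P032.H738

open Vale.Agent.P032.H98 (labN lab imp imp_mp codA codB cp cp_div cp_mod AdjOK OpOK Ct mem4
  adB_leg opB_leg)

/-- possible pairs at the next slot -/
def nxA (p : ℕ) : List ℕ :=
  ([[5, 6, 7, 9, 10, 11, 13, 14, 15], [6, 7, 8, 10, 11, 12, 14, 15],
    [4, 5, 7, 9, 11, 12, 13, 15], [4, 5, 6, 8, 9, 10, 13, 14], [2, 3, 9, 10, 11, 13, 14, 15],
    [0, 2, 3, 8, 10, 11, 12, 14, 15], [0, 1, 3, 8, 11, 12, 13, 15], [0, 1, 2, 8, 9, 10, 12, 14],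
    [1, 3, 5, 6, 7, 13, 14, 15], [0, 2, 3, 4, 7, 12, 14, 15], [0, 1, 3, 4, 5, 7, 12, 13, 15],
    [0, 1, 2, 4, 5, 6, 12, 13, 14], [1, 2, 5, 6, 7, 9, 10, 11], [0, 2, 3, 4, 6, 8, 10, 11],
    [0, 1, 3, 4, 5, 7, 8, 9, 11], [0, 1, 2, 4, 5, 6, 8, 9, 10]] : List (List ℕ)).getD p []

/-- neighbours -/
def adA (p q : ℕ) : Bool :=
  Nat.beq (Nat.land (Nat.shiftRight
    0x7770bbb0d5d0ee67077b0bbd09de0ea5707b90bdd0dee0c6770bab0ddc0eee0 (16 * p + q)) 1) 1

/-- neighbours, with the swap of the two free letters -/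
def adS (p q : ℕ) : Bool :=
  Nat.beq (Nat.land (Nat.shiftRight
    0x7770bbb0d5d0ee67077b0bbd09de0ea5707b90bdd0dee0e6770bab0ddd0eee0 (16 * p + q)) 1) 1

/-- the next slots beside the corner -/
def rfB (p q : ℕ) : Bool :=
  Nat.beq (Nat.land (Nat.shiftRight
    0x7770033077707770033b0bbb0bbb0bb0777b0bbffffffff0777b0bbffffffff (16 * p + q)) 1) 1

def ctB (p : ℕ) : Bool := Nat.beq (Nat.land (Nat.shiftRight 0xdd3f p) 1) 1

def loB (p : ℕ) : Bool := Nat.beq (Nat.land (Nat.shiftRight 0x33 p) 1) 1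

/-- the condition at a slot -/
def ct3 (p q r : ℕ) : Bool := ctB p || (loB q && loB r)

/-- the check of the ties -/
def chkX : Bool :=
  all16.all fun p0 => (nxA p0).all fun p1 => (nxA p1).all fun p2 => (nxA p2).all fun p3 =>
    imp (opB p0 p3) ((nxA p3).all fun p4 => imp (opB p1 p4) (imp (ct3 p0 p2 p4)
      (imp (ct3 p2 p4 p0) (imp (ct3 p4 p0 p2) ((nxA p4).all fun p5 =>
      imp (opB p2 p5) (imp (adA p5 p0) (imp (ct3 p1 p3 p5) (imp (ct3 p3 p5 p1)
        (imp (ct3 p5 p1 p3)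
        (Nat.beq (labN (codA p0 p1 p2 p3 p4 p5)) (labN (codB p0 p1 p2 p3 p4 p5))))))))))))

theorem chkX_true : chkX = true := by decide +kernel

/-- the same class, or exactly one big class -/
def eqB (l m : ℕ) : Bool :=
  Nat.beq l m || ((Nat.beq l 1 || Nat.beq l 4) != (Nat.beq m 1 || Nat.beq m 4))

/-- the check of the corners -/
def chkC : Bool :=
  all16.all fun p1 => (nxA p1).all fun p2 => imp (rfB p1 p2) ((nxA p2).all fun p3 =>
    (nxA p3).all fun p4 => imp (opB p1 p4) ((nxA p4).all fun p5 =>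
      imp (rfB p4 p5) (imp (opB p2 p5) (imp (ct3 p1 p3 p5) (imp (ct3 p3 p5 p1)
        (imp (ct3 p5 p1 p3) (all16.all fun p0 => imp (opB p0 p3) (imp (adS p5 p0)
          (imp (adS p0 p1) (imp (ct3 p2 p4 p0) (imp (ct3 p4 p0 p2)
        (eqB (labN (codA p0 p1 p2 p3 p4 p5)) (labN (codB p0 p1 p2 p3 p4 p5))))))))))))))

theorem chkC_true : chkC = true := by decide +kernel

/-- the rotation of the classes -/
def prm (l : ℕ) : ℕ := ([2, 4, 3, 0, 1] : List ℕ).getD l 0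

/-- the check of the rotation -/
def chkR : Bool :=
  [0, 1, 2, 3].all fun a => [0, 1, 2, 3].all fun b => [0, 1, 2, 3].all fun c =>
    [0, 1, 2, 3].all fun d => imp (opB (5 * a) (5 * d)) ([0, 1, 2, 3].all fun e =>
      imp (opB (5 * b) (5 * e)) ([0, 1, 2, 3].all fun f =>
      imp (opB (5 * c) (5 * f)) (imp (adA (5 * a) (5 * b) && adA (5 * b) (5 * c) &&
        adA (5 * c) (5 * d) && adA (5 * d) (5 * e) && adA (5 * e) (5 * f) && adA (5 * f) (5 * a))
        (Nat.beq (labN (b + 4 * c + 16 * d + 64 * e + 256 * f + 1024 * a))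
          (prm (labN (a + 4 * b + 16 * c + 64 * d + 256 * e + 1024 * f))) &&
        Nat.ble (labN (a + 4 * b + 16 * c + 64 * d + 256 * e + 1024 * f)) 4))))

theorem chkR_true : chkR = true := by decide +kernel

theorem mem_nxA : ∀ a b a' b' : Fin 4, AdjOK a b a' b' → cp a' b' ∈ nxA (cp a b) := by
  decide +kernel

theorem adA_of : ∀ a b a' b' : Fin 4, AdjOK a b a' b' → adA (cp a b) (cp a' b') = true := by
  decide +kernel

/-- neighbours at the corner -/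
def AdjS (a b a' b' : Fin 4) : Prop :=
  AdjOK a b a' b' ∨ (a ≠ a' ∧ b ≠ b' ∧ a ≤ 1 ∧ b ≤ 1 ∧ a' ≤ 1 ∧ b' ≤ 1)

instance (a b a' b' : Fin 4) : Decidable (AdjS a b a' b') := by unfold AdjS; infer_instance

theorem adS_of : ∀ a b a' b' : Fin 4, AdjS a b a' b' → adS (cp a b) (cp a' b') = true := by
  decide +kernel

/-- beside the corner -/
def Rf (a b a' b' : Fin 4) : Prop :=
  (a = 2 ∨ b = 2 → a' ≠ 2 ∧ b' ≠ 2) ∧ (a = 3 ∨ b = 3 → a' ≠ 3 ∧ b' ≠ 3)

instance (a b a' b' : Fin 4) : Decidable (Rf a b a' b') := by unfold Rf; infer_instance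

theorem rfB_of : ∀ a b a' b' : Fin 4, Rf a b a' b' → rfB (cp a b) (cp a' b') = true := by
  decide +kernel

theorem rfB_of' : ∀ a b a' b' : Fin 4, Rf a b a' b' → rfB (cp a' b') (cp a b) = true := by
  decide +kernel

theorem ctB_of : ∀ a b : Fin 4, Ct a b → ctB (cp a b) = true := by decide +kernel

theorem loB_of : ∀ a b : Fin 4, a ≤ 1 ∧ b ≤ 1 → loB (cp a b) = true := by decide +kernel

/-- the condition of a slot: letters may change, or the slots `j + 2`, `j + 4` are free -/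
def CtX (h h' : Fin 6 → Fin 4) (j : Fin 6) : Prop :=
  Ct (h j) (h' j) ∨ (h (j + 2) ≤ 1 ∧ h' (j + 2) ≤ 1 ∧ h (j + 4) ≤ 1 ∧ h' (j + 4) ≤ 1)

theorem ct3_of {h h' : Fin 6 → Fin 4} {j : Fin 6} (ct : CtX h h' j) :
    ct3 (cp (h j) (h' j)) (cp (h (j + 2)) (h' (j + 2))) (cp (h (j + 4)) (h' (j + 4))) = true := by
  unfold ct3
  rcases ct with ct | ⟨h1, h2, h3, h4⟩
  · rw [ctB_of _ _ ct]; rfl
  · rw [loB_of _ _ ⟨h1, h2⟩, loB_of _ _ ⟨h3, h4⟩]; simp

theorem ct3_of' {h h' : Fin 6 → Fin 4} {j : Fin 6} (ct : CtX h h' j) :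
    ct3 (cp (h j) (h' j)) (cp (h (j + 4)) (h' (j + 4))) (cp (h (j + 2)) (h' (j + 2))) = true := by
  unfold ct3
  rcases ct with ct | ⟨h1, h2, h3, h4⟩
  · rw [ctB_of _ _ ct]; rfl
  · rw [loB_of _ _ ⟨h1, h2⟩, loB_of _ _ ⟨h3, h4⟩]; simp

/-- **ties with harmless links**: the class does not change -/
theorem tieX (h h' : Fin 6 → Fin 4)
    (ct : ∀ j, Ct (h j) (h' j) ∨
      (h (j + 2) ≤ 1 ∧ h' (j + 2) ≤ 1 ∧ h (j + 4) ≤ 1 ∧ h' (j + 4) ≤ 1))
    (adj : ∀ j, AdjOK (h j) (h' j) (h (j + 1)) (h' (j + 1)))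
    (op : ∀ j, OpOK (h j) (h' j) (h (j + 3)) (h' (j + 3))) : lab h = lab h' := by
  have k0 := List.all_eq_true.1 chkX_true _ (mem_all (h 0) (h' 0))
  have k1 := List.all_eq_true.1 k0 _ (mem_nxA _ _ _ _ (adj 0))
  have k2 := List.all_eq_true.1 k1 _ (mem_nxA _ _ _ _ (adj 1))
  have k3 := List.all_eq_true.1 k2 _ (mem_nxA _ _ _ _ (adj 2))
  have k4 := List.all_eq_true.1 (imp_mp k3 (opB_of _ _ _ _ (op 0))) _ (mem_nxA _ _ _ _ (adj 3))
  have k4' := imp_mp (imp_mp (imp_mp (imp_mp k4 (opB_of _ _ _ _ (op 1))) (ct3_of (ct 0)))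
    (ct3_of (ct 2))) (ct3_of (ct 4))
  have k5 := List.all_eq_true.1 k4' _ (mem_nxA _ _ _ _ (adj 4))
  have k6 := imp_mp (imp_mp (imp_mp (imp_mp (imp_mp k5 (opB_of _ _ _ _ (op 2)))
    (adA_of _ _ _ _ (adj 5))) (ct3_of (ct 1))) (ct3_of (ct 3))) (ct3_of (ct 5))
  have k7 := Nat.eq_of_beq_eq_true k6
  unfold codA codB at k7
  simp only [cp_div, cp_mod] at k7
  exact k7

/-- the two big classes -/
def big (l : ℕ) : Prop := l = 1 ∨ l = 4

instance (l : ℕ) : Decidable (big l) := by unfold big; infer_instance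

theorem big_iff (l : ℕ) : (Nat.beq l 1 || Nat.beq l 4) = true ↔ big l := by
  unfold big
  rw [Bool.or_eq_true, Nat.beq_eq, Nat.beq_eq]

theorem eqB_imp {l m : ℕ} (h : eqB l m = true) : l = m ∨ (big l ↔ ¬ big m) := by
  unfold eqB at h
  rw [Bool.or_eq_true] at h
  rcases h with h | h
  · exact Or.inl (Nat.eq_of_beq_eq_true h)
  · right
    rw [← big_iff, ← big_iff]
    revert h
    cases (Nat.beq l 1 || Nat.beq l 4) <;> cases (Nat.beq m 1 || Nat.beq m 4) <;> simp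

theorem corner0 (h h' : Fin 6 → Fin 4) (ct : ∀ j, j ≠ 0 → CtX h h' j)
    (adj0 : AdjS (h 0) (h' 0) (h 1) (h' 1)) (adj5 : AdjS (h 5) (h' 5) (h 0) (h' 0))
    (adj : ∀ j, j ≠ 0 → j ≠ 5 → AdjOK (h j) (h' j) (h (j + 1)) (h' (j + 1)))
    (op : ∀ j, OpOK (h j) (h' j) (h (j + 3)) (h' (j + 3)))
    (ref1 : Rf (h 1) (h' 1) (h 2) (h' 2)) (ref5 : Rf (h 5) (h' 5) (h 4) (h' 4)) :
    lab h = lab h' ∨ (big (lab h) ↔ ¬ big (lab h')) := by
  have k1 := List.all_eq_true.1 chkC_true _ (mem_all (h 1) (h' 1))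
  have k2 := imp_mp (List.all_eq_true.1 k1 _
    (mem_nxA _ _ _ _ (adj 1 (by decide) (by decide)))) (rfB_of _ _ _ _ ref1)
  have k3 := List.all_eq_true.1 k2 _ (mem_nxA _ _ _ _ (adj 2 (by decide) (by decide)))
  have k4 := imp_mp (List.all_eq_true.1 k3 _
    (mem_nxA _ _ _ _ (adj 3 (by decide) (by decide)))) (opB_of _ _ _ _ (op 1))
  have k5 := List.all_eq_true.1 k4 _ (mem_nxA _ _ _ _ (adj 4 (by decide) (by decide)))
  have k5' := imp_mp (imp_mp (imp_mp (imp_mp (imp_mp k5 (rfB_of' _ _ _ _ ref5))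
    (opB_of _ _ _ _ (op 2))) (ct3_of (ct 1 (by decide)))) (ct3_of (ct 3 (by decide))))
    (ct3_of (ct 5 (by decide)))
  have k0 := List.all_eq_true.1 k5' _ (mem_all (h 0) (h' 0))
  have k6 := imp_mp (imp_mp (imp_mp (imp_mp (imp_mp k0 (opB_of _ _ _ _ (op 0)))
    (adS_of _ _ _ _ adj5)) (adS_of _ _ _ _ adj0)) (ct3_of (ct 2 (by decide))))
    (ct3_of (ct 4 (by decide)))
  have k7 := eqB_imp k6
  unfold codA codB at k7
  simp only [cp_div, cp_mod] at k7
  exact k7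

/-- a column -/
def LegF (h : Fin 6 → Fin 4) : Prop :=
  (∀ j, h j ≠ h (j + 1)) ∧ ∀ j, ¬ (h j = 2 ∧ h (j + 3) = 3)

theorem adA_leg : ∀ a b : Fin 4, a ≠ b → adA (5 * a.val) (5 * b.val) = true := by
  decide +kernel

theorem opX_leg : ∀ a b : Fin 4, ¬ (a = 2 ∧ b = 3) → ¬ (a = 3 ∧ b = 2) →
    opB (5 * a.val) (5 * b.val) = true := by decide +kernel

/-- **rotation**: the permutation of the classes -/
theorem rot_lab {h : Fin 6 → Fin 4} (hL : LegF h) :
    lab (fun j => h (j + 1)) = prm (lab h) ∧ lab h ≤ 4 := by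
  obtain ⟨adj, op⟩ := hL
  have op' : ∀ j, ¬ (h j = 3 ∧ h (j + 3) = 2) := by
    intro j hj
    refine op (j + 3) ⟨hj.2, ?_⟩
    have e : j + 3 + 3 = j := by
      rw [add_assoc]; exact add_zero j
    rw [e]; exact hj.1
  have k := List.all_eq_true.1 (List.all_eq_true.1 (List.all_eq_true.1 (List.all_eq_true.1
    chkR_true _ (mem4 (h 0))) _ (mem4 (h 1))) _ (mem4 (h 2))) _ (mem4 (h 3))
  have k1 := List.all_eq_true.1 (imp_mp k (opX_leg _ _ (op 0) (op' 0))) _ (mem4 (h 4))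
  have k2 := List.all_eq_true.1 (imp_mp k1 (opX_leg _ _ (op 1) (op' 1))) _ (mem4 (h 5))
  have g0 : adA (5 * (h 0).val) (5 * (h 1).val) = true := adA_leg _ _ (adj 0)
  have g1 : adA (5 * (h 1).val) (5 * (h 2).val) = true := adA_leg _ _ (adj 1)
  have g2 : adA (5 * (h 2).val) (5 * (h 3).val) = true := adA_leg _ _ (adj 2)
  have g3 : adA (5 * (h 3).val) (5 * (h 4).val) = true := adA_leg _ _ (adj 3)
  have g4 : adA (5 * (h 4).val) (5 * (h 5).val) = true := adA_leg _ _ (adj 4)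
  have g5 : adA (5 * (h 5).val) (5 * (h 0).val) = true := adA_leg _ _ (adj 5)
  have k3 := imp_mp (imp_mp k2 (opX_leg _ _ (op 2) (op' 2))) (by
    rw [g0, g1, g2, g3, g4, g5]; rfl)
  rw [Bool.and_eq_true] at k3
  exact ⟨Nat.eq_of_beq_eq_true k3.1, Nat.le_of_ble_eq_true k3.2⟩

theorem legF_rot {h : Fin 6 → Fin 4} (hL : LegF h) : LegF (fun j => h (j + 1)) := by
  refine ⟨fun j => hL.1 (j + 1), fun j => ?_⟩
  have e : j + 3 + 1 = j + 1 + 3 := add_right_comm j 3 1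
  have k := hL.2 (j + 1)
  rw [← e] at k
  exact k

theorem prm_big : ∀ l : ℕ, l ≤ 4 → (big (prm l) ↔ big l) := by decide

theorem prm_inj : ∀ l : ℕ, l ≤ 4 → ∀ m : ℕ, m ≤ 4 → prm l = prm m → l = m := by decide

/-- **rotation**: the size class does not change -/
theorem rot_big (h : Fin 6 → Fin 4) (adj : ∀ j, h j ≠ h (j + 1))
    (op : ∀ j, ¬ (h j = 2 ∧ h (j + 3) = 3)) :
    big (lab (fun j => h (j + 1))) ↔ big (lab h) := by
  obtain ⟨h1, h2⟩ := rot_lab ⟨adj, op⟩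
  rw [h1]
  exact prm_big _ h2

/-- the conclusion of `cornerX` -/
def CR (h h' : Fin 6 → Fin 4) : Prop := lab h = lab h' ∨ (big (lab h) ↔ ¬ big (lab h'))

theorem CR_rot {h h' : Fin 6 → Fin 4} (hL : LegF h) (hL' : LegF h')
    (hc : CR (fun j => h (j + 1)) (fun j => h' (j + 1))) : CR h h' := by
  obtain ⟨h1, h2⟩ := rot_lab hL
  obtain ⟨h1', h2'⟩ := rot_lab hL'
  unfold CR at hc ⊢
  rw [h1, h1', prm_big _ h2, prm_big _ h2'] at hc
  rcases hc with hc | hc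
  · exact Or.inl (prm_inj _ h2 _ h2' hc)
  · exact Or.inr hc

theorem CR_step {k : Fin 6} (hk : ∀ {h h' : Fin 6 → Fin 4}, LegF h → LegF h' →
    CR (fun j => h (j + k)) (fun j => h' (j + k)) → CR h h') {h h' : Fin 6 → Fin 4}
    (hL : LegF h) (hL' : LegF h')
    (hc : CR (fun j => h (j + (k + 1))) (fun j => h' (j + (k + 1)))) : CR h h' := by
  refine CR_rot hL hL' (hk (legF_rot hL) (legF_rot hL') ?_)
  have e : ∀ j : Fin 6, j + k + 1 = j + (k + 1) := fun j => add_assoc j k 1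
  simp only [e]
  exact hc

theorem CR_of (k : Fin 6) {h h' : Fin 6 → Fin 4} (hL : LegF h) (hL' : LegF h')
    (hc : CR (fun j => h (j + k)) (fun j => h' (j + k))) : CR h h' := by
  have p0 : ∀ {h h' : Fin 6 → Fin 4}, LegF h → LegF h' →
      CR (fun j => h (j + (0 : Fin 6))) (fun j => h' (j + (0 : Fin 6))) → CR h h' := by
    intro h h' _ _ hc
    simp only [add_zero] at hc
    exact hc
  have p1 := @CR_step 0 @p0
  have p2 := @CR_step (0 + 1) @p1
  have p3 := @CR_step (0 + 1 + 1) @p2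
  have p4 := @CR_step (0 + 1 + 1 + 1) @p3
  have p5 := @CR_step (0 + 1 + 1 + 1 + 1) @p4
  have key : ∀ k : Fin 6, k = 0 ∨ k = 0 + 1 ∨ k = 0 + 1 + 1 ∨ k = 0 + 1 + 1 + 1 ∨
      k = 0 + 1 + 1 + 1 + 1 ∨ k = 0 + 1 + 1 + 1 + 1 + 1 := by decide
  rcases key k with e | e | e | e | e | e <;> subst e
  · exact p0 hL hL' hc
  · exact p1 hL hL' hc
  · exact p2 hL hL' hc
  · exact p3 hL hL' hc
  · exact p4 hL hL' hc
  · exact p5 hL hL' hc

/-- **one corner**: the class does not change, or exactly one of the two classes is big -/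
theorem cornerX (h h' : Fin 6 → Fin 4) (j0 : Fin 6)
    (ct : ∀ j, j ≠ j0 → Ct (h j) (h' j) ∨
      (h (j + 2) ≤ 1 ∧ h' (j + 2) ≤ 1 ∧ h (j + 4) ≤ 1 ∧ h' (j + 4) ≤ 1))
    (adj : ∀ j, AdjOK (h j) (h' j) (h (j + 1)) (h' (j + 1)) ∨
      ((j = j0 ∨ j + 1 = j0) ∧ h j ≠ h (j + 1) ∧ h' j ≠ h' (j + 1) ∧
        h j ≤ 1 ∧ h' j ≤ 1 ∧ h (j + 1) ≤ 1 ∧ h' (j + 1) ≤ 1))
    (op : ∀ j, OpOK (h j) (h' j) (h (j + 3)) (h' (j + 3)))
    (ref1 : ∀ X : Fin 4, 2 ≤ X → (h (j0 + 1) = X ∨ h' (j0 + 1) = X) →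
      h (j0 + 2) ≠ X ∧ h' (j0 + 2) ≠ X)
    (ref5 : ∀ X : Fin 4, 2 ≤ X → (h (j0 + 5) = X ∨ h' (j0 + 5) = X) →
      h (j0 + 4) ≠ X ∧ h' (j0 + 4) ≠ X) :
    lab h = lab h' ∨ (big (lab h) ↔ ¬ big (lab h')) := by
  have hL : LegF h := by
    refine ⟨fun j => ?_, fun j hj => (op j).1 ⟨Or.inl hj.1, Or.inl hj.2⟩⟩
    rcases adj j with k | k
    · exact k.1
    · exact k.2.1
  have hL' : LegF h' := by
    refine ⟨fun j => ?_, fun j hj => (op j).1 ⟨Or.inr hj.1, Or.inr hj.2⟩⟩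
    rcases adj j with k | k
    · exact k.2.1
    · exact k.2.2.1
  refine CR_of j0 hL hL' ?_
  have as : ∀ j k : Fin 6, j + k + j0 = j + j0 + k := fun j k => add_right_comm j k j0
  have z : ∀ k : Fin 6, j0 + k = k + j0 := fun k => add_comm _ _
  refine corner0 _ _ ?_ ?_ ?_ ?_ ?_ ?_ ?_
  · intro j hj
    have hne : j + j0 ≠ j0 := by
      intro h0
      exact hj (by simpa using h0)
    have k := ct (j + j0) hne
    unfold CtX
    simp only [as]
    exact k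
  · have k := adj j0
    unfold AdjS
    rw [z 1] at k
    simp only [zero_add]
    rcases k with k | ⟨-, k1, k2, k3, k4, k5, k6⟩
    · exact Or.inl k
    · exact Or.inr ⟨k1, k2, k3, k4, k5, k6⟩
  · have k := adj (5 + j0)
    have e5 : (5 : Fin 6) + j0 + 1 = j0 := by
      rw [← as]
      exact zero_add j0
    unfold AdjS
    rw [e5] at k
    simp only [zero_add]
    rcases k with k | ⟨-, k1, k2, k3, k4, k5, k6⟩
    · exact Or.inl k
    · exact Or.inr ⟨k1, k2, k3, k4, k5, k6⟩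
  · intro j hj hj5
    have k := adj (j + j0)
    simp only [as]
    rcases k with k | ⟨k0 | k0, -⟩
    · exact k
    · exact absurd (by simpa using k0) hj
    · exfalso
      rw [← as] at k0
      have k1 : j + 1 = 0 := by simpa using k0
      have k2 : ∀ i : Fin 6, i + 1 = 0 → i = 5 := by decide
      exact hj5 (k2 j k1)
  · intro j
    have k := op (j + j0)
    simp only [as]
    exact k
  · have k2 := ref1 2 (by decide)
    have k3 := ref1 3 (by decide)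
    rw [z 1, z 2] at k2 k3
    exact ⟨k2, k3⟩
  · have k2 := ref5 2 (by decide)
    have k3 := ref5 3 (by decide)
    rw [z 5, z 4] at k2 k3
    exact ⟨k2, k3⟩

end Vale.Agent.P032.H738
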