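import Vale.Agent.P032.H780.Special
import Vale.Agent.P032.H471.Cross
import Vale.Agent.P032.S5.H767.Let
import Vale.Agent.P032.S5.H824.Two

/-!
# P032: order-four neighbours of a two-pair centre, no swap with the apexes

`PQ738 T y P Q` : `T y = P ∪ Q`, two complementary pairs, and every palette on `S(y)` inside `T y`
contains `P` or `Q`.

`ns1_738` : if `{e, f}` is not a pair of `y`, an apex `p` of order at most three has a colour outside
`T y`; `ns2_738` : if moreover `e, f ∈ T y` then `e, f` are not both at `p`.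
`miss_side738` : near `p` one side of `S(z)` misses a given colour of a two-pair point `y`.
-/

open Set Filter Topology Metric

noncomputable section

namespace Vale.Agent.P032.Six

open Vale.Agent.P032.S5.H767 Vale.Agent.P032.S5.H122 Vale.Agent.P032.Sweep

variable {U : Fin 6 → Set ℂ} {T : ℂ → Set (Fin 6)} {z y p : ℂ} {a b c d e f : Fin 6}

/-- a point with four colours in two complementary pairs, for its whole circle -/
structure PQ738 (T : ℂ → Set (Fin 6)) (y : ℂ) (P Q : Set (Fin 6)) : Prop where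
  un : P ∪ Q = T y
  dj : Disjoint P Q
  cP : P.ncard = 2
  cQ : Q.ncard = 2
  pt : ∀ x, dist x y = 1 → (∃ i ∈ T x, i ∉ T y) ∨ P ⊆ T x ∨ Q ⊆ T x

theorem PQ738.symm {P Q : Set (Fin 6)} (h : PQ738 T y P Q) : PQ738 T y Q P :=
  ⟨by rw [union_comm]; exact h.un, h.dj.symm, h.cQ, h.cP, fun x hx => by
    rcases h.pt x hx with h1 | h1 | h1
    · exact Or.inl h1
    · exact Or.inr (Or.inr h1)
    · exact Or.inr (Or.inl h1)⟩

/-- a two-pair point -/
theorem PQ738.of_dpt (h : Irr U T) {q r s t : Fin 6} (hy : DPt T y q r s t) :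
    PQ738 T y {q, r} {s, t} := by
  refine ⟨?_, ?_, Set.ncard_pair hy.ab, Set.ncard_pair hy.cd, fun x hx =>
    h.letter471 (h.twoPairs hy) hx⟩
  · rw [hy.pal]; ext i; simp only [mem_union, mem_insert_iff, mem_singleton_iff]; tauto
  · rw [Set.disjoint_left]
    rintro i (rfl | hi) (h2 | h2)
    · exact hy.ac h2
    · exact hy.ad h2
    · rw [mem_singleton_iff] at hi; subst hi; exact hy.bc h2
    · rw [mem_singleton_iff] at hi; subst hi; exact hy.bd h2

/-- if the palette of `p ∈ S(y)` is inside `T y`, it contains a pair of `y` without colours of the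
other points of `S(p)` -/
theorem ns_pair738 (h : Irr U T) {P Q : Set (Fin 6)} (hy : PQ738 T y P Q) (hpy : dist p y = 1)
    (h3 : (T p).ncard ≤ 3) {v : ℂ} (hpv : dist p v = 1) (h1 : v ≠ y) (h2 : v + y ≠ 2 * p)
    (hsub : T p ⊆ T y) (hP : P ⊆ T p) : ∀ t ∈ P, t ∉ T v := by
  intro t ht htv
  have hev : ∀ᶠ q in 𝓝[sphere y 1] p, t ∈ T q := by
    filter_upwards [mem_nhdsWithin_of_mem_nhds (h.nhd p), self_mem_nhdsWithin] with q hq hqy
    rcases hy.pt q hqy with ⟨i, hi, hi'⟩ | h4 | h4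
    · exact absurd (hsub (hq hi)) hi'
    · exact h4 ht
    · exfalso
      have h5 : P ∪ Q ⊆ T p := union_subset hP (h4.trans hq)
      have h6 := Set.ncard_le_ncard h5 (Set.toFinite _)
      rw [Set.ncard_union_eq hy.dj (Set.toFinite _) (Set.toFinite _), hy.cP, hy.cQ] at h6
      omega
  rcases h.third hpy hev hpv htv with h4 | h4
  · exact h1 h4
  · exact h2 h4

theorem pair_eq738 {P : Set (Fin 6)} (hef : e ≠ f) (hP : P.ncard = 2) (hs : P ⊆ {e, f}) :
    P = {e, f} :=
  Set.eq_of_subset_of_ncard_le hs (by rw [hP, Set.ncard_pair hef]) (Set.toFinite _)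

theorem nd_ef738 (C : Ctr U T z a b c d e f) : e ≠ f := by
  have hn := C.nd
  simp only [List.nodup_cons, List.mem_cons, List.not_mem_nil, or_false, not_or, List.nodup_nil,
    and_true, not_false_eq_true] at hn
  exact hn.2.2.2.2

/-- **(NS1)** -/
theorem ns1_738 (C : Ctr U T z a b c d e f) {P Q : Set (Fin 6)} (hy : PQ738 T y P Q) (hP : P ≠ {e, f})
    (hQ : Q ≠ {e, f}) (hyz : dist y z = 1) (hpz : dist p z = 1) (hpy : dist p y = 1)
    (h3 : (T p).ncard ≤ 3) : ¬ T p ⊆ T y := by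
  intro hsub
  obtain ⟨k1, k2⟩ := S5.H767.tri hpz hyz
  have key : ∀ {P Q : Set (Fin 6)}, PQ738 T y P Q → P ⊆ T p → P = {e, f} := by
    intro P Q hy hPp
    have h4 := ns_pair738 C.irr hy hpy h3 (v := z) hpz k1 k2 hsub hPp
    refine pair_eq738 (nd_ef738 C) hy.cP fun i hi => ?_
    exact C.miss (h4 i hi)
  rcases hy.pt p hpy with ⟨i, hi, hi'⟩ | h4 | h4
  · exact hi' (hsub hi)
  · exact hP (key hy h4)
  · exact hQ (key hy.symm h4)

/-- **(NS2)** -/
theorem ns2_738 (C : Ctr U T z a b c d e f) {P Q : Set (Fin 6)} (hy : PQ738 T y P Q) (hP : P ≠ {e, f})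
    (hQ : Q ≠ {e, f}) (hyz : dist y z = 1) (hpz : dist p z = 1) (hpy : dist p y = 1)
    (h3 : (T p).ncard ≤ 3) (hey : e ∈ T y) (hfy : f ∈ T y) (he : e ∈ T p) (hf : f ∈ T p) :
    False := by
  obtain ⟨x, hx, hxy⟩ := Set.not_subset.1 (ns1_738 C hy hP hQ hyz hpz hpy h3)
  obtain ⟨k1, k2⟩ := S5.H767.tri hpz hyz
  have hef := nd_ef738 C
  have hxe : x ≠ e := fun h => hxy (h ▸ hey)
  have hxf : x ≠ f := fun h => hxy (h ▸ hfy)
  have hxz : x ∈ T z := by
    by_contra hcon
    rcases C.miss hcon with h | h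
    · exact hxe h
    · exact hxf h
  have hT : T p = {e, f, x} := by
    refine (Set.eq_of_subset_of_ncard_le ?_ ?_ (Set.toFinite _)).symm
    · rintro i (rfl | rfl | hi)
      · exact he
      · exact hf
      · rw [mem_singleton_iff] at hi; rw [hi]; exact hx
    · rw [Set.ncard_insert_of_notMem, Set.ncard_pair hxf.symm]
      · exact h3
      · rintro (h | h)
        · exact hef h
        · exact hxe h.symm
  have hev : ∀ᶠ q in 𝓝[sphere y 1] p, x ∈ T q := by
    have key : ∀ {P Q : Set (Fin 6)}, PQ738 T y P Q → P ≠ {e, f} → ∀ q, T q ⊆ T p → P ⊆ T q →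
        False := by
      intro P Q hy hP q hq hPq
      refine hP (pair_eq738 hef hy.cP fun i hi => ?_)
      have h5 : i ∈ T p := hq (hPq hi)
      rw [hT] at h5
      rcases h5 with h5 | h5 | h5
      · exact Or.inl h5
      · exact Or.inr h5
      · exfalso
        rw [mem_singleton_iff] at h5
        refine hxy ?_
        rw [← hy.un, ← h5]
        exact Or.inl hi
    filter_upwards [mem_nhdsWithin_of_mem_nhds (C.irr.nhd p), self_mem_nhdsWithin] with q hq hqy
    rcases hy.pt q hqy with ⟨i, hi, hi'⟩ | h4 | h4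
    · have h5 : i ∈ T p := hq hi
      rw [hT] at h5
      rcases h5 with h5 | h5 | h5
      · exact absurd (h5 ▸ hey) hi'
      · exact absurd (h5 ▸ hfy) hi'
      · rw [mem_singleton_iff] at h5; exact h5 ▸ hi
    · exact (key hy hP q hq h4).elim
    · exact (key hy.symm hQ q hq h4).elim
  rcases C.irr.third hpy hev hpz hxz with h4 | h4
  · exact k1 h4
  · exact k2 h4

/-- the name of one colour of a two-pair point first -/
theorem dpt_name738 {q r s t : Fin 6} (hw : DPt T y q r s t) (he : e ∈ T y) :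
    ∃ r' s' t', DPt T y e r' s' t' := by
  rw [hw.pal] at he
  rcases he with rfl | rfl | rfl | he
  · exact ⟨r, s, t, hw⟩
  · exact ⟨q, s, t, hw.swap12⟩
  · exact ⟨t, q, r, hw.swap⟩
  · rw [mem_singleton_iff] at he
    subst he
    exact ⟨s, q, r, hw.swap.swap12⟩

/-- one side of `S(z)` at `p` misses a given colour of another two-pair point of `S(p)` -/
theorem miss_side738 (h : Irr U T) {s₀ : ℝ} {q r s t : Fin 6} (hy : DPt T y q r s t) (he : e ∈ T y)
    (hpy : dist (pt z s₀) y = 1) (h1 : z ≠ y) (h2 : z + y ≠ 2 * pt z s₀) :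
    (∀ᶠ w in 𝓝[<] s₀, T (pt z w) ⊆ {e}ᶜ) ∨ ∀ᶠ w in 𝓝[>] s₀, T (pt z w) ⊆ {e}ᶜ := by
  obtain ⟨r', s', t', hy'⟩ := dpt_name738 hy he
  obtain ⟨i, i', j, j', hi, -, -, -, τ, hτ, -, ho, hin⟩ := h.cross471 hy' hpy (dist_pt z s₀) h1 h2
  have key : ∀ τ : ℝ, (τ = 1 ∨ τ = -1) →
      (∀ᶠ t in 𝓝[>] (0 : ℝ), e ∉ T (hbr z (pt z s₀) τ t)) →
      (∀ᶠ w in 𝓝[<] s₀, T (pt z w) ⊆ {e}ᶜ) ∨ ∀ᶠ w in 𝓝[>] s₀, T (pt z w) ⊆ {e}ᶜ := by
    intro τ hτ hev
    have hB : Br T z (pt z s₀) τ {e}ᶜ := by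
      filter_upwards [hev] with t ht i hi hie
      rw [mem_singleton_iff] at hie
      exact ht (hie ▸ hi)
    rcases hτ with rfl | rfl
    · exact Or.inr (H780.br_right hB)
    · exact Or.inl (H780.br_left hB)
  rcases hi with ⟨rfl, rfl⟩ | ⟨rfl, rfl⟩
  · exact key τ hτ (ho.mono fun t ht => ht.1)
  · refine key (-τ) ?_ (hin.mono fun t ht => ht.1)
    rcases hτ with rfl | rfl
    · exact Or.inr rfl
    · exact Or.inl (by norm_num)

end Vale.Agent.P032.Six
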