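import Vale.Agent.P032.H98.Star
import Vale.Agent.P032.H738.LinkFin
import Vale.Agent.P032.H738.Ns

/-!
# P032: a two-pair point whose plain ends all carry the same free letter, with links

`z` a two-pair point with the pairs `ab | cd` and the free colours `e, f`.  The points of `S(z)` have
at most three colours, or the palette of `z`, or they are links `LinkE738`: four colours in two
complementary pairs, none of them `{e, f}`; if `f` is a colour of `y`, so is `e`, and if moreover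
`{a, b}` or `{c, d}` is in `T y` then `y` is a two-pair point (types `K_e`, `EE`, `HE`).

`Irr.star_false738` : if no point of order at most three of the closed `ab`- and `cd`-arcs has the
colour `f`, there is a contradiction.
-/

open Set Filter Topology Metric

noncomputable section

namespace Vale.Agent.P032.Six

open Vale.Agent.P032.S5.H767 Vale.Agent.P032.S5.H122 Vale.Agent.P032.Sweep

variable {U : Fin 6 → Set ℂ} {T : ℂ → Set (Fin 6)} {z : ℂ} {a b c d e f : Fin 6}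

/-- a neighbour with four colours and no corner of the colour `f` -/
def LinkE738 (T : ℂ → Set (Fin 6)) (a b c d e f : Fin 6) (y : ℂ) : Prop :=
  ∃ P Q, PQ738 T y P Q ∧ P ≠ {e, f} ∧ Q ≠ {e, f} ∧ (f ∈ T y → e ∈ T y) ∧
    (f ∈ T y → (a ∈ T y ∧ b ∈ T y) ∨ (c ∈ T y ∧ d ∈ T y) → ∃ p q r s, DPt T y p q r s)

/-- the data -/
structure StE738 (U : Fin 6 → Set ℂ) (T : ℂ → Set (Fin 6)) (z : ℂ) (a b c d e f : Fin 6) : Prop where
  irr : Irr U T
  dpt : DPt T z a b c d
  nd : [a, b, c, d, e, f].Nodup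
  hJ : ∀ y, dist y z = 1 → (T y).ncard ≤ 3 ∨ T y = T z ∨ LinkE738 T a b c d e f y
  hAp : ∀ y y', dist y z = 1 → dist y' z = 1 → dist y y' = 1 → LinkE738 T a b c d e f y →
    (T y').ncard ≤ 3 ∨ T y' = T z
  hA : ∀ y ∈ closure (Ex T z {a, b}), (T y).ncard ≤ 3 → f ∉ T y
  hC : ∀ y ∈ closure (Ex T z {c, d}), (T y).ncard ≤ 3 → f ∉ T y

theorem lt98_zero738 {P : Set (Fin 6)} (h : lt98 a b e f P = 0) : e ∈ P := by
  unfold lt98 at h
  by_contra hcon
  rw [if_neg hcon] at h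
  split_ifs at h <;> exact absurd h (by decide)

theorem lt98_one738 {P : Set (Fin 6)} (h : lt98 a b e f P = 1) : f ∈ P := by
  unfold lt98 at h
  by_contra hcon
  split_ifs at h <;> exact absurd h (by decide)

theorem lt98_two738 {P : Set (Fin 6)} (h : lt98 a b e f P = 2) : P = {a, b} := by
  unfold lt98 at h
  by_contra hcon
  split_ifs at h <;> exact absurd h (by decide)

theorem fin4_738 (l : Fin 4) : l = 0 ∨ l = 1 ∨ l = 2 ∨ l = 3 := by
  fin_cases l <;> decide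

namespace StE738

theorem ctr (S : StE738 U T z a b c d e f) : Ctr U T z a b c d e f where
  irr := S.irr
  pal := S.dpt.pal
  nd := S.nd
  pairs := fun y hy hloc hsub => S.irr.twoPairs S.dpt y hy hloc hsub

/-- the structure of `H98` without the conditions on `f`: only the fields used in `mem_Lt`, `sw` -/
theorem mem_Lt (S : StE738 U T z a b c d e f) {j : Fin 6} {l : Fin 4} {u : ℝ}
    (hu : u ∈ St98.X T z a b e f ((), j) l) : St98.pj z u j ∈ Lt T z a b c d e f l := by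
  obtain ⟨P, hP, h1, h2⟩ := Xl_pal hu
  have hsub : P ⊆ T (St98.pj z u j) := sub_of_closure S.irr h2
  have hP : lt98 a b e f P = l := hP
  unfold lt98 at hP
  by_cases he : e ∈ P
  · rw [if_pos he] at hP
    subst hP
    exact ⟨St98.dist_pj z u j, hsub he⟩
  rw [if_neg he] at hP
  by_cases hf : f ∈ P
  · rw [if_pos hf] at hP
    subst hP
    exact ⟨St98.dist_pj z u j, hsub hf⟩
  rw [if_neg hf] at hP
  by_cases hab : P = {a, b}
  · rw [if_pos hab] at hP
    subst hP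
    subst hab
    exact h2
  rw [if_neg hab] at hP
  subst hP
  have hPz : P ⊆ T z := by
    intro i hi
    by_contra hcon
    rcases S.ctr.miss hcon with rfl | rfl
    · exact he hi
    · exact hf hi
  obtain ⟨v, hv1, hv2⟩ : ({v | v ∈ Lc T z ∧ T (pt z v) = P} : Set ℝ).Nonempty :=
    closure_nonempty_iff.1 ⟨_, h1⟩
  have hcd : P = {c, d} := by
    rcases S.ctr.pairs (pt z v) (dist_pt z v) (Lc_circle hv1) (by rw [hv2]; exact hPz) with h3 | h3
    · exact absurd (hv2.symm.trans h3) hab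
    · exact hv2.symm.trans h3
  rw [hcd] at h2
  exact h2

/-- `A` and `C` are not available at opposite slots -/
theorem opp (S : StE738 U T z a b c d e f) {j : Fin 6} {u : ℝ}
    (h2 : u ∈ St98.X T z a b e f ((), j) 2) (h3 : u ∈ St98.X T z a b e f ((), j + 3) 3) :
    False := by
  have k2 : St98.pj z u j ∈ closure (Ex T z {a, b}) := S.mem_Lt h2
  have k3 : St98.pj z u (j + 3) ∈ closure (Ex T z {c, d}) := S.mem_Lt h3
  have hsub : ({c, d} : Set (Fin 6)) ⊆ T (St98.pj z u (j + 3)) := sub_of_closure S.irr k3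
  refine S.irr.anti_clo S.dpt (St98.dist_pj z u (j + 3)) (hsub (by simp)) (hsub (by simp)) ?_
  rw [St98.pj_add3, sub_sub_cancel]
  exact k2

theorem sw (S : StE738 U T z a b c d e f) : Sw (St98.X T z a b e f) St98.Leg := by
  refine sw_of S.irr dense_univ fun u _ hu => ?_
  have hav : ∀ j : Fin 6, u ∈ St98.X T z a b e f ((), j) (lt98 a b e f (T (St98.pj z u j))) :=
    fun j => (Xl_Lc (hu ((), j))).2 rfl
  constructor
  · intro j hj
    have hj : lt98 a b e f (T (St98.pj z u j)) = lt98 a b e f (T (St98.pj z u (j + 1))) := hj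
    have hdis : Disjoint (T (St98.pj z u j)) (T (St98.pj z u (j + 1))) := by
      rw [St98.pj_succ]; exact dj_sixty S.irr (hu ((), j))
    obtain ⟨t, ht⟩ := col_nonempty (a := a) (b := b) (c := c) (d := d) (e := e) (f := f)
      (lt98 a b e f (T (St98.pj z u j)))
    have h1 := Lt_col S.irr (S.mem_Lt (hav j)) ht
    have h2 := Lt_col S.irr (S.mem_Lt (hav (j + 1))) (hj ▸ ht)
    exact Set.disjoint_left.1 hdis h1 h2
  · rintro j ⟨h2, h3⟩
    have h2 : lt98 a b e f (T (St98.pj z u j)) = 2 := h2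
    have h3 : lt98 a b e f (T (St98.pj z u (j + 3))) = 3 := h3
    exact S.opp (h2 ▸ hav j) (h3 ▸ hav (j + 3))

/-- adjacent slots -/
def Ajc (j k : Fin 6) : Prop := k = j + 1 ∨ j = k + 1

theorem dist_ajc (u : ℝ) {j k : Fin 6} (h : Ajc j k) :
    dist (St98.pj z u j) (St98.pj z u k) = 1 := by
  rcases h with rfl | rfl
  · exact St98.dist_pj_succ z u j
  · rw [dist_comm]; exact St98.dist_pj_succ z u k

/-- no letter `e`, `f` at a point with the palette of `z` -/
theorem noEF_of_eq (S : StE738 U T z a b c d e f) {y : ℂ} (hy : T y = T z) {l : Fin 4}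
    (hl : y ∈ Lt T z a b c d e f l) : l = 2 ∨ l = 3 := by
  have hn := S.nd
  simp only [List.nodup_cons, List.mem_cons, List.not_mem_nil, or_false, not_or, List.nodup_nil,
    and_true, not_false_eq_true] at hn
  obtain ⟨⟨ab, ac, ad, ae, af⟩, ⟨bc, bd, be, bf⟩, ⟨cd, ce, cf⟩, ⟨de, df⟩, ef⟩ := hn
  have he : e ∉ T y := by
    rw [hy, S.dpt.pal]
    simp only [mem_insert_iff, mem_singleton_iff, not_or]
    exact ⟨Ne.symm ae, Ne.symm be, Ne.symm ce, Ne.symm de⟩
  have hf : f ∉ T y := by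
    rw [hy, S.dpt.pal]
    simp only [mem_insert_iff, mem_singleton_iff, not_or]
    exact ⟨Ne.symm af, Ne.symm bf, Ne.symm cf, Ne.symm df⟩
  rcases fin4_738 l with rfl | rfl | h4 | h4
  · exact absurd hl.2 he
  · exact absurd hl.2 hf
  · exact Or.inl h4
  · exact Or.inr h4

/-- three colours of a small palette are all of it -/
theorem sub_three {A : Set (Fin 6)} (h3 : A.ncard ≤ 3) {x1 x2 x3 : Fin 6} (h12 : x1 ≠ x2)
    (h13 : x1 ≠ x3) (h23 : x2 ≠ x3) (k1 : x1 ∈ A) (k2 : x2 ∈ A) (k3 : x3 ∈ A) {B : Set (Fin 6)}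
    (m1 : x1 ∈ B) (m2 : x2 ∈ B) (m3 : x3 ∈ B) : A ⊆ B := by
  have hT : A = {x1, x2, x3} := by
    refine (Set.eq_of_subset_of_ncard_le ?_ ?_ (Set.toFinite _)).symm
    · rintro i (rfl | rfl | hi)
      · exact k1
      · exact k2
      · rw [mem_singleton_iff] at hi; rw [hi]; exact k3
    · rw [Set.ncard_insert_of_notMem, Set.ncard_pair h23]
      · exact h3
      · rintro (h | h)
        · exact h12 h
        · exact h13 h
  rw [hT]
  rintro i (rfl | rfl | hi)
  · exact m1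
  · exact m2
  · rw [mem_singleton_iff] at hi; rw [hi]; exact m3

/-- **no swap** of a link and an apex of order at most three -/
theorem noswap_link (S : StE738 U T z a b c d e f) {y p : ℂ} (hL : LinkE738 T a b c d e f y)
    (hyp : dist y p = 1) (h3 : (T p).ncard ≤ 3) {l m : Fin 4} (hlm : l ≠ m)
    (hl : y ∈ Lt T z a b c d e f l) (hm : y ∈ Lt T z a b c d e f m)
    (hl' : p ∈ Lt T z a b c d e f l) (hm' : p ∈ Lt T z a b c d e f m) :
    (l = 2 ∧ m = 3) ∨ (l = 3 ∧ m = 2) := by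
  have hn := S.nd
  simp only [List.nodup_cons, List.mem_cons, List.not_mem_nil, or_false, not_or, List.nodup_nil,
    and_true, not_false_eq_true] at hn
  obtain ⟨⟨ab, ac, ad, ae, af⟩, ⟨bc, bd, be, bf⟩, ⟨cd, ce, cf⟩, ⟨de, df⟩, ef⟩ := hn
  obtain ⟨P, Q, hPQ, hP, hQ, -, -⟩ := hL
  have hyz := Lt_dist hl
  have hpz := Lt_dist hl'
  have hpy : dist p y = 1 := by rw [dist_comm]; exact hyp
  have n1 := ns1_738 S.ctr hPQ hP hQ hyz hpz hpy h3
  have n2 : e ∈ T y → f ∈ T y → e ∈ T p → f ∈ T p → False := fun h1 h2 h4 h5 =>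
    ns2_738 S.ctr hPQ hP hQ hyz hpz hpy h3 h1 h2 h4 h5
  have hA : ∀ {w : ℂ}, w ∈ Lt T z a b c d e f 2 → a ∈ T w ∧ b ∈ T w := fun hw =>
    ⟨Lt_col S.irr hw (Or.inl rfl), Lt_col S.irr hw (Or.inr rfl)⟩
  have hC : ∀ {w : ℂ}, w ∈ Lt T z a b c d e f 3 → c ∈ T w ∧ d ∈ T w := fun hw =>
    ⟨Lt_col S.irr hw (Or.inl rfl), Lt_col S.irr hw (Or.inr rfl)⟩
  have key : ∀ l m : Fin 4, y ∈ Lt T z a b c d e f l → y ∈ Lt T z a b c d e f m →
      p ∈ Lt T z a b c d e f l → p ∈ Lt T z a b c d e f m → (l = 0 ∨ l = 1) → l ≠ m → False := by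
    intro l m hl hm hl' hm' hl0 hlm
    rcases hl0 with rfl | rfl
    · rcases fin4_738 m with rfl | rfl | rfl | rfl
      · exact hlm rfl
      · exact n2 hl.2 hm.2 hl'.2 hm'.2
      · exact n1 (sub_three h3 ab ae be (hA hm').1 (hA hm').2 hl'.2 (hA hm).1 (hA hm).2 hl.2)
      · exact n1 (sub_three h3 cd ce de (hC hm').1 (hC hm').2 hl'.2 (hC hm).1 (hC hm).2 hl.2)
    · rcases fin4_738 m with rfl | rfl | rfl | rfl
      · exact n2 hm.2 hl.2 hm'.2 hl'.2
      · exact hlm rfl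
      · exact n1 (sub_three h3 ab af bf (hA hm').1 (hA hm').2 hl'.2 (hA hm).1 (hA hm).2 hl.2)
      · exact n1 (sub_three h3 cd cf df (hC hm').1 (hC hm').2 hl'.2 (hC hm).1 (hC hm).2 hl.2)
  rcases fin4_738 l with hl0 | hl0 | hl0 | hl0
  · exact (key l m hl hm hl' hm' (Or.inl hl0) hlm).elim
  · exact (key l m hl hm hl' hm' (Or.inr hl0) hlm).elim
  · rcases fin4_738 m with hm0 | hm0 | hm0 | hm0
    · exact (key m l hm hl hm' hl' (Or.inl hm0) hlm.symm).elim
    · exact (key m l hm hl hm' hl' (Or.inr hm0) hlm.symm).elim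
    · exact absurd (hl0.trans hm0.symm) hlm
    · exact Or.inl ⟨hl0, hm0⟩
  · rcases fin4_738 m with hm0 | hm0 | hm0 | hm0
    · exact (key m l hm hl hm' hl' (Or.inl hm0) hlm.symm).elim
    · exact (key m l hm hl hm' hl' (Or.inr hm0) hlm.symm).elim
    · exact Or.inr ⟨hl0, hm0⟩
    · exact absurd (hl0.trans hm0.symm) hlm

/-- no swap of neighbours, except `A`, `C` -/
theorem noswap (S : StE738 U T z a b c d e f) {j k : Fin 6} (hjk : Ajc j k) {l m : Fin 4} {u : ℝ}
    (hlm : l ≠ m)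
    (hl : u ∈ St98.X T z a b e f ((), j) l) (hm : u ∈ St98.X T z a b e f ((), j) m)
    (hl' : u ∈ St98.X T z a b e f ((), k) l) (hm' : u ∈ St98.X T z a b e f ((), k) m) :
    (l = 2 ∧ m = 3) ∨ (l = 3 ∧ m = 2) := by
  have kl := S.mem_Lt hl
  have km := S.mem_Lt hm
  have kl' := S.mem_Lt hl'
  have km' := S.mem_Lt hm'
  have fin : (l = 2 ∨ l = 3) → (m = 2 ∨ m = 3) → (l = 2 ∧ m = 3) ∨ (l = 3 ∧ m = 2) := by
    rintro (rfl | rfl) (rfl | rfl)
    · exact absurd rfl hlm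
    · exact Or.inl ⟨rfl, rfl⟩
    · exact Or.inr ⟨rfl, rfl⟩
    · exact absurd rfl hlm
  have hd := dist_ajc (z := z) u hjk
  have hd' : dist (St98.pj z u k) (St98.pj z u j) = 1 := by rw [dist_comm]; exact hd
  rcases S.hJ _ (St98.dist_pj z u j) with h3 | hz | hL
  · rcases S.hJ _ (St98.dist_pj z u k) with h3' | hz' | hL'
    · exact (S.ctr.noswap hlm hd h3 h3' kl km kl' km').elim
    · exact fin (S.noEF_of_eq hz' kl') (S.noEF_of_eq hz' km')
    · exact S.noswap_link hL' hd' h3 hlm kl' km' kl km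
  · exact fin (S.noEF_of_eq hz kl) (S.noEF_of_eq hz km)
  · rcases S.hAp _ _ (St98.dist_pj z u j) (St98.dist_pj z u k) hd hL with h3' | hz'
    · exact S.noswap_link hL hd h3' hlm kl km kl' km'
    · exact fin (S.noEF_of_eq hz' kl') (S.noEF_of_eq hz' km')

/-- a column seen from the left or from the right -/
def Seen (T : ℂ → Set (Fin 6)) (z : ℂ) (a b e f : Fin 6) (u : ℝ) (σ : Bool)
    (g : Unit × Fin 6 → Fin 4) : Prop :=
  match σ with
  | true => g ∈ LC (St98.X T z a b e f) u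
  | false => g ∈ RC (St98.X T z a b e f) u

/-- the side of an angle -/
def sd (s₀ : ℝ) (σ : Bool) : Filter ℝ :=
  match σ with
  | true => 𝓝[<] s₀
  | false => 𝓝[>] s₀

theorem Seen.pal {u : ℝ} {σ : Bool} {g : Unit × Fin 6 → Fin 4} (h : Seen T z a b e f u σ g)
    (j : Fin 6) : ∃ P, lt98 a b e f P = g ((), j) ∧ (∃ w ∈ Lc T z, T (pt z w) = P) ∧
      ∀ X : Set (Fin 6), (∀ᶠ w in sd (0 + u + (j.val : ℝ)) σ, T (pt z w) ⊆ X) → P ⊆ X := by
  cases σ with
  | true =>
    obtain ⟨P, hP, hS⟩ := H780.LC_pal (κ := Unit) (z := fun _ => z) (φ := 0)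
      (lt := fun _ => lt98 a b e f) (u := u) (g := g) h ((), j)
    obtain ⟨w, hw⟩ := Frequently.exists hS
    exact ⟨P, hP, ⟨w, hw⟩, fun X hX => hS.sub hX⟩
  | false =>
    obtain ⟨P, hP, hS⟩ := H780.RC_pal (κ := Unit) (z := fun _ => z) (φ := 0)
      (lt := fun _ => lt98 a b e f) (u := u) (g := g) h ((), j)
    obtain ⟨w, hw⟩ := Frequently.exists hS
    exact ⟨P, hP, ⟨w, hw⟩, fun X hX => hS.sub hX⟩

theorem Seen.av (S : StE738 U T z a b c d e f) {u : ℝ} {σ : Bool} {g : Unit × Fin 6 → Fin 4}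
    (h : Seen T z a b e f u σ g) : St98.Leg g ∧ Av (St98.X T z a b e f) u g := by
  have w := S.sw
  cases σ with
  | true => exact ⟨w.leg_of_LC h, w.av_of_LC h⟩
  | false => exact ⟨w.leg_of_RC h, w.av_of_RC h⟩

/-- the split in this notation -/
theorem split_sd (h : Irr U T) {s₀ : ℝ} {p q r s : Fin 6} (hy : DPt T (pt z s₀) p q r s)
    (σ : Bool) : ∃ X Y : Set (Fin 6), Disjoint X Y ∧ X.ncard = 2 ∧ Y.ncard = 2 ∧
      (∀ᶠ w in sd s₀ σ, T (pt z w) ⊆ X) ∧ ∀ᶠ w in sd s₀ (!σ), T (pt z w) ⊆ Y := by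
  obtain ⟨X, Y, hXY, h1, h2⟩ := H780.split_ang h hy
  have hc : Disjoint X Y ∧ X.ncard = 2 ∧ Y.ncard = 2 := by
    have ab := hy.ab; have ac := hy.ac; have ad := hy.ad
    have bc := hy.bc; have bd := hy.bd; have cd := hy.cd
    have key : ∀ x1 x2 x3 x4 : Fin 6, x1 ≠ x2 → x3 ≠ x4 → x1 ≠ x3 → x1 ≠ x4 → x2 ≠ x3 → x2 ≠ x4 →
        Disjoint ({x1, x2} : Set (Fin 6)) {x3, x4} ∧ ({x1, x2} : Set (Fin 6)).ncard = 2 ∧
          ({x3, x4} : Set (Fin 6)).ncard = 2 := by
      intro x1 x2 x3 x4 h12 h34 h13 h14 h23 h24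
      refine ⟨?_, Set.ncard_pair h12, Set.ncard_pair h34⟩
      rw [Set.disjoint_left]
      rintro i (rfl | hi) (h | h)
      · exact h13 h
      · exact h14 h
      · rw [mem_singleton_iff] at hi; subst hi; exact h23 h
      · rw [mem_singleton_iff] at hi; subst hi; exact h24 h
    rcases hXY with ⟨rfl, rfl⟩ | ⟨rfl, rfl⟩ | ⟨rfl, rfl⟩ | ⟨rfl, rfl⟩
    · exact key _ _ _ _ ac bd ab ad bc.symm cd
    · exact key _ _ _ _ bd ac ab.symm bc ad.symm cd.symm
    · exact key _ _ _ _ ad bc ab ac bd.symm cd.symm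
    · exact key _ _ _ _ bc ad ab.symm bd ac.symm cd
  cases σ with
  | true => exact ⟨X, Y, hc.1, hc.2.1, hc.2.2, h1, h2⟩
  | false => exact ⟨Y, X, hc.1.symm, hc.2.2, hc.2.1, h2, h1⟩

/-- a palette with the letter `C` -/
theorem lt98_three (S : StE738 U T z a b c d e f) {P : Set (Fin 6)} (h : lt98 a b e f P = 3)
    (hw : ∃ w ∈ Lc T z, T (pt z w) = P) : P = {c, d} := by
  obtain ⟨w, hw1, rfl⟩ := hw
  unfold lt98 at h
  by_cases he : e ∈ T (pt z w)
  · rw [if_pos he] at h; exact absurd h (by decide)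
  rw [if_neg he] at h
  by_cases hf : f ∈ T (pt z w)
  · rw [if_pos hf] at h; exact absurd h (by decide)
  rw [if_neg hf] at h
  by_cases hab : T (pt z w) = {a, b}
  · rw [if_pos hab] at h; exact absurd h (by decide)
  have hPz : T (pt z w) ⊆ T z := by
    intro i hi
    by_contra hcon
    rcases S.ctr.miss hcon with rfl | rfl
    · exact he hi
    · exact hf hi
  rcases S.ctr.pairs (pt z w) (dist_pt z w) (Lc_circle hw1) hPz with h3 | h3
  · exact absurd h3 hab
  · exact h3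

/-- a side of a two-pair point has not both an exact pair `P` and a colour outside `P` -/
theorem one_side (S : StE738 U T z a b c d e f) {u : ℝ} {j : Fin 6} {σ : Bool}
    {g g' : Unit × Fin 6 → Fin 4} (hg : Seen T z a b e f u σ g) (hg' : Seen T z a b e f u σ g')
    {p q r s : Fin 6} (hy : DPt T (St98.pj z u j) p q r s)
    (h1 : g' ((), j) = 1) (h2 : g ((), j) = 2 ∨ g ((), j) = 3) : False := by
  have hn := S.nd
  simp only [List.nodup_cons, List.mem_cons, List.not_mem_nil, or_false, not_or, List.nodup_nil,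
    and_true, not_false_eq_true] at hn
  obtain ⟨⟨ab, ac, ad, ae, af⟩, ⟨bc, bd, be, bf⟩, ⟨cd, ce, cf⟩, ⟨de, df⟩, ef⟩ := hn
  obtain ⟨X, Y, -, hX, -, hXs, -⟩ := split_sd S.irr hy σ
  obtain ⟨P, hP, hw, hPX⟩ := hg.pal j
  obtain ⟨P', hP', -, hPX'⟩ := hg'.pal j
  have k1 : P ⊆ X := hPX X hXs
  have k2 : f ∈ X := hPX' X hXs (lt98_one738 (hP'.trans h1))
  rcases h2 with h2 | h2
  · have k3 : P = {a, b} := lt98_two738 (hP.trans h2)
    have k4 : P = X := Set.eq_of_subset_of_ncard_le k1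
      (by rw [hX, k3, Set.ncard_pair ab]) (Set.toFinite _)
    rw [← k4, k3] at k2
    rcases k2 with k2 | k2
    · exact af k2.symm
    · exact bf (mem_singleton_iff.1 k2).symm
  · have k3 : P = {c, d} := S.lt98_three (hP.trans h2) hw
    have k4 : P = X := Set.eq_of_subset_of_ncard_le k1
      (by rw [hX, k3, Set.ncard_pair cd]) (Set.toFinite _)
    rw [← k4, k3] at k2
    rcases k2 with k2 | k2
    · exact cf k2.symm
    · exact df (mem_singleton_iff.1 k2).symm

/-- not the letter `e` on both sides of an apex of a two-pair point with the colour `e` -/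
theorem not_ee (S : StE738 U T z a b c d e f) {u : ℝ} {j k : Fin 6} (hjk : Ajc j k) {σ : Bool}
    {g g' : Unit × Fin 6 → Fin 4} (hg : Seen T z a b e f u σ g)
    (hg' : Seen T z a b e f u (!σ) g') {p q r s : Fin 6} (hy : DPt T (St98.pj z u j) p q r s)
    (he : e ∈ T (St98.pj z u j)) (h1 : g ((), k) = 0) (h2 : g' ((), k) = 0) : False := by
  have hd : dist (pt z (0 + u + (k.val : ℝ))) (St98.pj z u j) = 1 := by
    have := dist_ajc (z := z) u hjk
    rw [dist_comm]; exact this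
  obtain ⟨k1, k2⟩ := S5.H767.tri (St98.dist_pj z u k) (St98.dist_pj z u j)
  obtain ⟨P, hP, -, hPX⟩ := hg.pal k
  obtain ⟨P', hP', -, hPX'⟩ := hg'.pal k
  have e1 : e ∈ P := lt98_zero738 (hP.trans h1)
  have e2 : e ∈ P' := lt98_zero738 (hP'.trans h2)
  have key : ∀ τ : Bool, (∀ᶠ w in sd (0 + u + (k.val : ℝ)) τ, T (pt z w) ⊆ {e}ᶜ) → False := by
    intro τ hτ
    by_cases hc : τ = σ
    · subst hc
      exact hPX _ hτ e1 rfl
    · have hc' : τ = !σ := by
        cases τ <;> cases σ <;> simp_all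
      subst hc'
      exact hPX' _ hτ e2 rfl
  rcases miss_side738 S.irr hy he hd k1 k2 with hm | hm
  · exact key true hm
  · exact key false hm

/-- a slot with the letters `f` and `A` (or `C`) is a two-pair link with the colour `e` -/
theorem link_fA (S : StE738 U T z a b c d e f) {y : ℂ} (h1 : y ∈ Lt T z a b c d e f 1)
    (h2 : y ∈ Lt T z a b c d e f 2 ∨ y ∈ Lt T z a b c d e f 3) :
    LinkE738 T a b c d e f y ∧ e ∈ T y ∧ f ∈ T y ∧ ∃ p q r s, DPt T y p q r s := by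
  have hL : LinkE738 T a b c d e f y := by
    rcases S.hJ y (Lt_dist h1) with h3 | hz | hL
    · rcases h2 with h2 | h2
      · exact absurd h1.2 (S.hA y h2 h3)
      · exact absurd h1.2 (S.hC y h2 h3)
    · rcases S.noEF_of_eq hz h1 with h4 | h4 <;> exact absurd h4 (by decide)
    · exact hL
  obtain ⟨P, Q, hPQ, hP, hQ, hfe, hD⟩ := hL
  refine ⟨⟨P, Q, hPQ, hP, hQ, hfe, hD⟩, hfe h1.2, h1.2, hD h1.2 ?_⟩
  rcases h2 with h2 | h2
  · exact Or.inl ⟨Lt_col S.irr h2 (Or.inl rfl), Lt_col S.irr h2 (Or.inr rfl)⟩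
  · exact Or.inr ⟨Lt_col S.irr h2 (Or.inl rfl), Lt_col S.irr h2 (Or.inr rfl)⟩

theorem leg_ajc {g : Unit × Fin 6 → Fin 4} (hg : St98.Leg g) {j k : Fin 6} (hjk : Ajc j k) :
    g ((), j) ≠ g ((), k) := by
  rcases hjk with rfl | rfl
  · exact hg.1 j
  · exact (hg.1 k).symm

/-- **the apexes of a link with a change between `f` and `A`** -/
theorem nbA (S : StE738 U T z a b c d e f) {u : ℝ} {j k : Fin 6} (hjk : Ajc j k) {σ : Bool}
    {g g' : Unit × Fin 6 → Fin 4} (hg : Seen T z a b e f u σ g)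
    (hg' : Seen T z a b e f u (!σ) g')
    (hl : (g ((), j) = 1 ∧ g' ((), j) = 2) ∨ (g ((), j) = 2 ∧ g' ((), j) = 1)) :
    H738.NbA (g ((), k)) (g' ((), k)) := by
  have hn := S.nd
  simp only [List.nodup_cons, List.mem_cons, List.not_mem_nil, or_false, not_or, List.nodup_nil,
    and_true, not_false_eq_true] at hn
  obtain ⟨⟨ab, ac, ad, ae, af⟩, ⟨bc, bd, be, bf⟩, ⟨cd, ce, cf⟩, ⟨de, df⟩, ef⟩ := hn
  obtain ⟨hleg, hav⟩ := Seen.av S hg
  obtain ⟨hleg', hav'⟩ := Seen.av S hg'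
  have m1 : St98.pj z u j ∈ Lt T z a b c d e f 1 := by
    rcases hl with ⟨h1, h2⟩ | ⟨h1, h2⟩
    · rw [← h1]; exact S.mem_Lt (hav ((), j))
    · rw [← h2]; exact S.mem_Lt (hav' ((), j))
  have m2 : St98.pj z u j ∈ Lt T z a b c d e f 2 := by
    rcases hl with ⟨h1, h2⟩ | ⟨h1, h2⟩
    · rw [← h2]; exact S.mem_Lt (hav' ((), j))
    · rw [← h1]; exact S.mem_Lt (hav ((), j))
  obtain ⟨hL, hey, hfy, p, q, r, s, hD⟩ := S.link_fA m1 (Or.inl m2)
  have hay : a ∈ T (St98.pj z u j) := Lt_col S.irr m2 (Or.inl rfl)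
  have hby : b ∈ T (St98.pj z u j) := Lt_col S.irr m2 (Or.inr rfl)
  -- the legs
  have l1 : ¬ (g ((), k) = 1 ∧ g' ((), k) = 1) := by
    rintro ⟨h1, h2⟩
    rcases hl with ⟨h3, -⟩ | ⟨-, h3⟩
    · exact leg_ajc hleg hjk (h3.trans h1.symm)
    · exact leg_ajc hleg' hjk (h3.trans h2.symm)
  have l2 : ¬ (g ((), k) = 2 ∧ g' ((), k) = 2) := by
    rintro ⟨h1, h2⟩
    rcases hl with ⟨-, h3⟩ | ⟨h3, -⟩
    · exact leg_ajc hleg' hjk (h3.trans h2.symm)
    · exact leg_ajc hleg hjk (h3.trans h1.symm)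
  have k1 := S.mem_Lt (hav ((), k))
  have k2 := S.mem_Lt (hav' ((), k))
  have hd := dist_ajc (z := z) u hjk
  have hee := fun h1 h2 => S.not_ee hjk hg hg' hD hey h1 h2
  generalize g ((), k) = l at k1 l1 l2 hee ⊢
  generalize g' ((), k) = m at k2 l1 l2 hee ⊢
  rcases S.hAp _ _ (St98.dist_pj z u j) (St98.dist_pj z u k) hd hL with h3 | hz
  · -- three colours
    have hAk : ∀ {w : ℂ}, w ∈ Lt T z a b c d e f 2 → a ∈ T w ∧ b ∈ T w := fun hw =>
      ⟨Lt_col S.irr hw (Or.inl rfl), Lt_col S.irr hw (Or.inr rfl)⟩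
    obtain ⟨P, Q, hPQ, hP, hQ, -, -⟩ := hL
    have hd' : dist (St98.pj z u k) (St98.pj z u j) = 1 := by rw [dist_comm]; exact hd
    have n1 := ns1_738 S.ctr hPQ hP hQ (St98.dist_pj z u j) (St98.dist_pj z u k) hd' h3
    have n2 : e ∈ T (St98.pj z u k) → f ∈ T (St98.pj z u k) → False := fun h1 h2 =>
      ns2_738 S.ctr hPQ hP hQ (St98.dist_pj z u j) (St98.dist_pj z u k) hd' h3 hey hfy h1 h2
    have n3 : St98.pj z u k ∈ Lt T z a b c d e f 2 → e ∈ T (St98.pj z u k) → False :=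
      fun h1 h2 => n1 (sub_three h3 ab ae be (hAk h1).1 (hAk h1).2 h2 hay hby hey)
    have n4 : St98.pj z u k ∈ Lt T z a b c d e f 2 → f ∈ T (St98.pj z u k) → False :=
      fun h1 h2 => n1 (sub_three h3 ab af bf (hAk h1).1 (hAk h1).2 h2 hay hby hfy)
    have n5 : St98.pj z u k ∈ Lt T z a b c d e f 3 → f ∈ T (St98.pj z u k) → False :=
      fun h1 h2 => S.hC _ h1 h3 h2
    rcases fin4_738 l with rfl | rfl | rfl | rfl <;> rcases fin4_738 m with rfl | rfl | rfl | rfl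
    · exact (hee rfl rfl).elim
    · exact (n2 k1.2 k2.2).elim
    · exact (n3 k2 k1.2).elim
    · decide
    · exact (n2 k2.2 k1.2).elim
    · exact absurd ⟨rfl, rfl⟩ l1
    · exact (n4 k2 k1.2).elim
    · exact (n5 k2 k1.2).elim
    · exact (n3 k1 k2.2).elim
    · exact (n4 k1 k2.2).elim
    · exact absurd ⟨rfl, rfl⟩ l2
    · decide
    · decide
    · exact (n5 k1 k2.2).elim
    · decide
    · decide
  · -- the palette of `z`
    rcases S.noEF_of_eq hz k1 with rfl | rfl <;> rcases S.noEF_of_eq hz k2 with rfl | rfl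
    · exact absurd ⟨rfl, rfl⟩ l2
    · decide
    · decide
    · decide

/-- **the apexes of a link with a change between `f` and `C`** -/
theorem nbC (S : StE738 U T z a b c d e f) {u : ℝ} {j k : Fin 6} (hjk : Ajc j k) {σ : Bool}
    {g g' : Unit × Fin 6 → Fin 4} (hg : Seen T z a b e f u σ g)
    (hg' : Seen T z a b e f u (!σ) g')
    (hl : (g ((), j) = 1 ∧ g' ((), j) = 3) ∨ (g ((), j) = 3 ∧ g' ((), j) = 1)) :
    H738.NbC (g ((), k)) (g' ((), k)) := by
  have hn := S.nd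
  simp only [List.nodup_cons, List.mem_cons, List.not_mem_nil, or_false, not_or, List.nodup_nil,
    and_true, not_false_eq_true] at hn
  obtain ⟨⟨ab, ac, ad, ae, af⟩, ⟨bc, bd, be, bf⟩, ⟨cd, ce, cf⟩, ⟨de, df⟩, ef⟩ := hn
  obtain ⟨hleg, hav⟩ := Seen.av S hg
  obtain ⟨hleg', hav'⟩ := Seen.av S hg'
  have m1 : St98.pj z u j ∈ Lt T z a b c d e f 1 := by
    rcases hl with ⟨h1, h2⟩ | ⟨h1, h2⟩
    · rw [← h1]; exact S.mem_Lt (hav ((), j))
    · rw [← h2]; exact S.mem_Lt (hav' ((), j))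
  have m2 : St98.pj z u j ∈ Lt T z a b c d e f 3 := by
    rcases hl with ⟨h1, h2⟩ | ⟨h1, h2⟩
    · rw [← h2]; exact S.mem_Lt (hav' ((), j))
    · rw [← h1]; exact S.mem_Lt (hav ((), j))
  obtain ⟨hL, hey, hfy, p, q, r, s, hD⟩ := S.link_fA m1 (Or.inr m2)
  have hcy : c ∈ T (St98.pj z u j) := Lt_col S.irr m2 (Or.inl rfl)
  have hdy : d ∈ T (St98.pj z u j) := Lt_col S.irr m2 (Or.inr rfl)
  have l1 : ¬ (g ((), k) = 1 ∧ g' ((), k) = 1) := by
    rintro ⟨h1, h2⟩
    rcases hl with ⟨h3, -⟩ | ⟨-, h3⟩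
    · exact leg_ajc hleg hjk (h3.trans h1.symm)
    · exact leg_ajc hleg' hjk (h3.trans h2.symm)
  have l2 : ¬ (g ((), k) = 3 ∧ g' ((), k) = 3) := by
    rintro ⟨h1, h2⟩
    rcases hl with ⟨-, h3⟩ | ⟨h3, -⟩
    · exact leg_ajc hleg' hjk (h3.trans h2.symm)
    · exact leg_ajc hleg hjk (h3.trans h1.symm)
  have k1 := S.mem_Lt (hav ((), k))
  have k2 := S.mem_Lt (hav' ((), k))
  have hd := dist_ajc (z := z) u hjk
  have hee := fun h1 h2 => S.not_ee hjk hg hg' hD hey h1 h2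
  generalize g ((), k) = l at k1 l1 l2 hee ⊢
  generalize g' ((), k) = m at k2 l1 l2 hee ⊢
  rcases S.hAp _ _ (St98.dist_pj z u j) (St98.dist_pj z u k) hd hL with h3 | hz
  · have hCk : ∀ {w : ℂ}, w ∈ Lt T z a b c d e f 3 → c ∈ T w ∧ d ∈ T w := fun hw =>
      ⟨Lt_col S.irr hw (Or.inl rfl), Lt_col S.irr hw (Or.inr rfl)⟩
    obtain ⟨P, Q, hPQ, hP, hQ, -, -⟩ := hL
    have hd' : dist (St98.pj z u k) (St98.pj z u j) = 1 := by rw [dist_comm]; exact hd
    have n1 := ns1_738 S.ctr hPQ hP hQ (St98.dist_pj z u j) (St98.dist_pj z u k) hd' h3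
    have n2 : e ∈ T (St98.pj z u k) → f ∈ T (St98.pj z u k) → False := fun h1 h2 =>
      ns2_738 S.ctr hPQ hP hQ (St98.dist_pj z u j) (St98.dist_pj z u k) hd' h3 hey hfy h1 h2
    have n3 : St98.pj z u k ∈ Lt T z a b c d e f 3 → e ∈ T (St98.pj z u k) → False :=
      fun h1 h2 => n1 (sub_three h3 cd ce de (hCk h1).1 (hCk h1).2 h2 hcy hdy hey)
    have n4 : St98.pj z u k ∈ Lt T z a b c d e f 3 → f ∈ T (St98.pj z u k) → False :=
      fun h1 h2 => n1 (sub_three h3 cd cf df (hCk h1).1 (hCk h1).2 h2 hcy hdy hfy)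
    have n5 : St98.pj z u k ∈ Lt T z a b c d e f 2 → f ∈ T (St98.pj z u k) → False :=
      fun h1 h2 => S.hA _ h1 h3 h2
    rcases fin4_738 l with rfl | rfl | rfl | rfl <;> rcases fin4_738 m with rfl | rfl | rfl | rfl
    · exact (hee rfl rfl).elim
    · exact (n2 k1.2 k2.2).elim
    · decide
    · exact (n3 k2 k1.2).elim
    · exact (n2 k2.2 k1.2).elim
    · exact absurd ⟨rfl, rfl⟩ l1
    · exact (n5 k2 k1.2).elim
    · exact (n4 k2 k1.2).elim
    · decide
    · exact (n5 k1 k2.2).elim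
    · decide
    · decide
    · exact (n3 k1 k2.2).elim
    · exact (n4 k1 k2.2).elim
    · decide
    · exact absurd ⟨rfl, rfl⟩ l2
  · rcases S.noEF_of_eq hz k1 with rfl | rfl <;> rcases S.noEF_of_eq hz k2 with rfl | rfl
    · decide
    · decide
    · decide
    · exact absurd ⟨rfl, rfl⟩ l2

/-- the condition of the finite table -/
theorem cond (S : StE738 U T z a b c d e f) {u : ℝ} {j k : Fin 6} (hjk : Ajc j k) {σ σ' : Bool}
    {g g' : Unit × Fin 6 → Fin 4} (hg : Seen T z a b e f u σ g)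
    (hg' : Seen T z a b e f u σ' g') :
    H738.Cond (g ((), j)) (g' ((), j)) (g ((), k)) (g' ((), k)) := by
  obtain ⟨-, hav⟩ := Seen.av S hg
  obtain ⟨-, hav'⟩ := Seen.av S hg'
  by_cases hσ : σ' = σ
  · subst hσ
    have key : ∀ {g g' : Unit × Fin 6 → Fin 4}, Seen T z a b e f u σ' g →
        Seen T z a b e f u σ' g' → g' ((), j) = 1 → g ((), j) = 2 ∨ g ((), j) = 3 → False := by
      intro g g' hg hg' h1 h2
      obtain ⟨-, hav⟩ := Seen.av S hg
      obtain ⟨-, hav'⟩ := Seen.av S hg'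
      have m1 : St98.pj z u j ∈ Lt T z a b c d e f 1 := by
        rw [← h1]; exact S.mem_Lt (hav' ((), j))
      have m2 : St98.pj z u j ∈ Lt T z a b c d e f 2 ∨ St98.pj z u j ∈ Lt T z a b c d e f 3 := by
        rcases h2 with h2 | h2
        · left; rw [← h2]; exact S.mem_Lt (hav ((), j))
        · right; rw [← h2]; exact S.mem_Lt (hav ((), j))
      obtain ⟨-, -, -, p, q, r, s, hD⟩ := S.link_fA m1 m2
      exact S.one_side hg hg' hD h1 h2
    refine ⟨?_, ?_⟩
    · rintro (⟨h1, h2⟩ | ⟨h1, h2⟩)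
      · exact (key hg' hg h1 (Or.inl h2)).elim
      · exact (key hg hg' h2 (Or.inl h1)).elim
    · rintro (⟨h1, h2⟩ | ⟨h1, h2⟩)
      · exact (key hg' hg h1 (Or.inr h2)).elim
      · exact (key hg hg' h2 (Or.inr h1)).elim
  · have hσ' : σ' = !σ := by
      cases σ <;> cases σ' <;> simp_all
    subst hσ'
    exact ⟨fun h => S.nbA hjk hg hg' h, fun h => S.nbC hjk hg hg' h⟩

/-- **the step**: the class does not change -/
theorem loc (S : StE738 U T z a b c d e f) {u : ℝ} {σ σ' : Bool} {g g' : Unit × Fin 6 → Fin 4}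
    (hg : Seen T z a b e f u σ g) (hg' : Seen T z a b e f u σ' g') :
    H98.lab (fun j => g ((), j)) = H98.lab (fun j => g' ((), j)) := by
  obtain ⟨hleg, ha⟩ := Seen.av S hg
  obtain ⟨hleg', ha'⟩ := Seen.av S hg'
  refine H738.tie _ _ (fun j => ⟨?_, S.cond (Or.inl rfl) hg hg', S.cond (Or.inr rfl) hg hg'⟩)
    (fun j => ?_)
  · refine ⟨hleg.1 j, hleg'.1 j, ?_⟩
    rintro ⟨h1, h2, h3, h4⟩
    refine h4 (S.noswap (Or.inl rfl : Ajc j (j + 1)) h1 (ha ((), j)) (ha' ((), j)) ?_ ?_)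
    · rw [h2]; exact ha' ((), j + 1)
    · rw [h3]; exact ha ((), j + 1)
  · have e3 : j + 3 + 3 = j := by rw [add_assoc]; exact add_zero j
    constructor
    · rintro ⟨h1, h2⟩
      have k1 : u ∈ St98.X T z a b e f ((), j) 2 := by
        rcases h1 with h1 | h1
        · rw [← h1]; exact ha ((), j)
        · rw [← h1]; exact ha' ((), j)
      have k2 : u ∈ St98.X T z a b e f ((), j + 3) 3 := by
        rcases h2 with h2 | h2
        · rw [← h2]; exact ha ((), j + 3)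
        · rw [← h2]; exact ha' ((), j + 3)
      exact S.opp k1 k2
    · rintro ⟨h1, h2⟩
      have k1 : u ∈ St98.X T z a b e f ((), j + 3 + 3) 3 := by
        rw [e3]
        rcases h1 with h1 | h1
        · rw [← h1]; exact ha ((), j)
        · rw [← h1]; exact ha' ((), j)
      have k2 : u ∈ St98.X T z a b e f ((), j + 3) 2 := by
        rcases h2 with h2 | h2
        · rw [← h2]; exact ha ((), j + 3)
        · rw [← h2]; exact ha' ((), j + 3)
      exact S.opp k2 k1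

theorem false (S : StE738 U T z a b c d e f) : False := by
  have w := S.sw
  have hseen : ∀ u, ∀ h ∈ LC (St98.X T z a b e f) u ∪ RC (St98.X T z a b e f) u,
      ∃ σ, Seen T z a b e f u σ h := by
    rintro u h (hh | hh)
    · exact ⟨Bool.true, hh⟩
    · exact ⟨Bool.false, hh⟩
  have hloc : ∀ u, ∀ h ∈ LC (St98.X T z a b e f) u ∪ RC (St98.X T z a b e f) u,
      ∀ h' ∈ LC (St98.X T z a b e f) u ∪ RC (St98.X T z a b e f) u,
      H98.lab (fun j => h ((), j)) = H98.lab (fun j => h' ((), j)) := by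
    intro u h hh h' hh'
    obtain ⟨σ, hσ⟩ := hseen u h hh
    obtain ⟨σ', hσ'⟩ := hseen u h' hh'
    exact S.loc hσ hσ'
  obtain ⟨h, hh⟩ := w.LC_ne 0
  obtain ⟨h', hh'⟩ := w.RC_ne 0
  have h1 := w.turn (σ := rt Unit) (fun s l u => Xl_per s l u)
    (R := fun g g' => H98.lab (fun j => g ((), j)) = H98.lab (fun j => g' ((), j)))
    (fun _ _ _ h1 h2 => h1.trans h2) 0 (fun u _ => hloc u) h hh h' hh'
  have h2 := hloc 0 h (Or.inl hh) h' (Or.inr hh')
  have hleg := w.leg_of_LC hh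
  refine H98.rot (fun j => h ((), j)) hleg.1 hleg.2 ?_
  exact (h2.trans h1).symm

end StE738

/-- **A two-pair point whose plain ends all carry the same free letter has a corner of the other
free colour** (or an apex of order four at a link). -/
theorem Irr.star_false738 (h : Irr U T) (hz : DPt T z a b c d) (nd : [a, b, c, d, e, f].Nodup)
    (hJ : ∀ y, dist y z = 1 → (T y).ncard ≤ 3 ∨ T y = T z ∨ LinkE738 T a b c d e f y)
    (hAp : ∀ y y', dist y z = 1 → dist y' z = 1 → dist y y' = 1 → LinkE738 T a b c d e f y →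
      (T y').ncard ≤ 3 ∨ T y' = T z)
    (hA : ∀ y ∈ closure (Ex T z {a, b}), (T y).ncard ≤ 3 → f ∉ T y)
    (hC : ∀ y ∈ closure (Ex T z {c, d}), (T y).ncard ≤ 3 → f ∉ T y) : False :=
  StE738.false ⟨h, hz, nd, hJ, hAp, hA, hC⟩

end Vale.Agent.P032.Six
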